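import Vale.Agent.Helper8.KTV.GraphTri
import Vale.Agent.Helper16.KTVG.Plan

/-!
Module M2 of the general-graph switch-chain project (problem P335): the triangle
statement `KTVG.TriStmt`, obtained from `KTV.H8G.graph_tri` by identifying the labels.
-/

namespace KTV.H8G

open Finset Classical

variable {n : ℕ}

theorem gOmega_eq (n : ℕ) (d : Fin n → ℕ) : KTVG.gOmega n d = gOmega n d := rfl

theorem labOffV_iff (S : Finset (Fin n)) (G G' : SimpleGraph (Fin n)) :
    KTVG.labOffV S G = KTVG.labOffV S G' ↔ offLab S G = offLab S G' := by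
  unfold KTVG.labOffV
  rw [KTVG.slotLab_eq_iff, offLab_eq_iff]
  constructor
  · intro h x y hx hy
    apply h x y
    unfold KTVG.Rinc
    rintro (h1 | h1)
    · exact hx h1
    · exact hy h1
  · intro h x y hxy
    exact h x y (fun hx => hxy (Or.inl hx)) (fun hy => hxy (Or.inr hy))

/-- the conditional expectation given `G - S` in the two encodings of the label -/
theorem cexpL_labOffV (d : Fin n → ℕ) (S : Finset (Fin n)) (g : SimpleGraph (Fin n) → ℝ)
    {G : SimpleGraph (Fin n)} (hG : G ∈ gOmega n d) :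
    KTV.cexpL (KTVG.gOmega n d) (KTVG.labOffV S) g G = KTV.cexpL (gOmega n d) (offLab S) g G := by
  rw [gOmega_eq]
  exact cexpL_kernel (gOmega n d) _ _ (fun x _ y _ => labOffV_iff S x y) g hG

/-- **Module M2**: the triangle statement for the graphs with degree vector `d`. -/
theorem triStmt (n : ℕ) (d : Fin n → ℕ) : KTVG.TriStmt n d := by
  intro u v w huv huw hvw f
  have h := graph_tri d huv huw hvw f
  have e : ∀ a b : Fin n, ∀ G ∈ gOmega n d,
      KTV.cexpL (KTVG.gOmega n d) (KTVG.labP a b) f G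
        = KTV.cexpL (gOmega n d) (offLab {a, b}) f G :=
    fun a b G hG => cexpL_labOffV d {a, b} f hG
  rw [gOmega_eq]
  have h1 : ∀ G ∈ gOmega n d, f G * (3 * f G - KTV.cexpL (gOmega n d) (KTVG.labP u v) f G
        - KTV.cexpL (gOmega n d) (KTVG.labP u w) f G - KTV.cexpL (gOmega n d) (KTVG.labP v w) f G)
      = f G * (3 * f G - KTV.cexpL (gOmega n d) (offLab {u, v}) f G
        - KTV.cexpL (gOmega n d) (offLab {u, w}) f G - KTV.cexpL (gOmega n d) (offLab {v, w}) f G) := by
    intro G hG
    have e1 := e u v G hG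
    have e2 := e u w G hG
    have e3 := e v w G hG
    rw [gOmega_eq] at e1 e2 e3
    rw [e1, e2, e3]
  have h2 : ∀ G ∈ gOmega n d, (3 * f G - KTV.cexpL (gOmega n d) (KTVG.labP u v) f G
        - KTV.cexpL (gOmega n d) (KTVG.labP u w) f G - KTV.cexpL (gOmega n d) (KTVG.labP v w) f G) ^ 2
      = (3 * f G - KTV.cexpL (gOmega n d) (offLab {u, v}) f G
        - KTV.cexpL (gOmega n d) (offLab {u, w}) f G - KTV.cexpL (gOmega n d) (offLab {v, w}) f G) ^ 2 := by
    intro G hG
    have e1 := e u v G hG
    have e2 := e u w G hG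
    have e3 := e v w G hG
    rw [gOmega_eq] at e1 e2 e3
    rw [e1, e2, e3]
  rw [Finset.sum_congr rfl h1, Finset.sum_congr rfl h2]
  exact h

end KTV.H8G
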