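import Vale.Agent.Helper16.KTV.Glue1
import Vale.Agent.Helper17.KTV.ThreeRow
import Vale.Agent.Helper19.KTV.Col

/-!
The triangle lemma for the graphs with a prescribed degree vector (problem P335,
general graphs): for three distinct vertices `u, v, w` the three conditional
expectations given `G - {u,v}`, `G - {u,w}`, `G - {v,w}` satisfy the three-row
inequality.  The proof transports the three-row inequality for binary tables
along the bijection between a fibre of `G - {u,v,w}` and a class of three-row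
tables with one extra column (entries: complements of the opposite edges).
-/

set_option linter.unusedSectionVars false

namespace KTV.H8G

open Finset Classical

variable {n : ℕ}

/-- the graphs on `Fin n` with degree vector `d` -/
noncomputable def gOmega (n : ℕ) (d : Fin n → ℕ) : Finset (SimpleGraph (Fin n)) :=
  univ.filter fun G => ∀ i, G.degree i = d i

/-- the label of `G` recording its adjacency on the pairs of vertices avoiding `S` -/
def offLab (S : Finset (Fin n)) (G : SimpleGraph (Fin n)) : Fin n → Fin n → Prop :=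
  fun x y => x ∉ S ∧ y ∉ S ∧ G.Adj x y

theorem mem_gOmega (d : Fin n → ℕ) (G : SimpleGraph (Fin n)) :
    G ∈ gOmega n d ↔ ∀ i, G.degree i = d i := by
  simp [gOmega]

/-- the three-row table of `G` at the triple `u, v, w`: rows `u, v, w` (all other rows
are zero), one column for every vertex (zero for `u, v, w`) and one extra column
holding the complements of the opposite edges -/
noncomputable def tabOf (u v w : Fin n) (G : SimpleGraph (Fin n)) :
    Tab (Fin n) (Option (Fin n)) :=
  fun a j => match j with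
    | some c => decide ((a = u ∨ a = v ∨ a = w) ∧ (c ≠ u ∧ c ≠ v ∧ c ≠ w) ∧ G.Adj a c)
    | none => decide ((a = u ∧ ¬ G.Adj v w) ∨ (a = v ∧ ¬ G.Adj u w) ∨ (a = w ∧ ¬ G.Adj u v))

theorem tabOf_some (u v w : Fin n) (G : SimpleGraph (Fin n)) (a c : Fin n) :
    tabOf u v w G a (some c) = true ↔
      (a = u ∨ a = v ∨ a = w) ∧ (c ≠ u ∧ c ≠ v ∧ c ≠ w) ∧ G.Adj a c := by
  simp [tabOf]

theorem tabOf_none (u v w : Fin n) (G : SimpleGraph (Fin n)) (a : Fin n) :
    tabOf u v w G a none = true ↔
      (a = u ∧ ¬ G.Adj v w) ∨ (a = v ∧ ¬ G.Adj u w) ∨ (a = w ∧ ¬ G.Adj u v) := by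
  simp [tabOf]

theorem tabOf_swap12 (u v w : Fin n) (G : SimpleGraph (Fin n)) :
    tabOf v u w G = tabOf u v w G := by
  funext a j
  rw [Bool.eq_iff_iff]
  cases j with
  | none =>
    rw [tabOf_none, tabOf_none, G.adj_comm v u]
    tauto
  | some c =>
    rw [tabOf_some, tabOf_some]
    tauto

theorem tabOf_swap23 (u v w : Fin n) (G : SimpleGraph (Fin n)) :
    tabOf u w v G = tabOf u v w G := by
  funext a j
  rw [Bool.eq_iff_iff]
  cases j with
  | none =>
    rw [tabOf_none, tabOf_none, G.adj_comm w v]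
    tauto
  | some c =>
    rw [tabOf_some, tabOf_some]
    tauto

theorem degree_eq_sum (G : SimpleGraph (Fin n)) (a : Fin n) :
    G.degree a = ∑ b, if G.Adj a b then 1 else 0 := by
  rw [← SimpleGraph.card_neighborFinset_eq_degree, SimpleGraph.neighborFinset_eq_filter,
    Finset.card_filter]

theorem rowSum_eq_sum (x : Tab (Fin n) (Option (Fin n))) (a : Fin n) :
    rowSum x a = (if x a none = true then 1 else 0)
      + ∑ b, if x a (some b) = true then 1 else 0 := by
  unfold rowSum
  rw [Finset.card_filter, Fintype.sum_option]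

theorem colSum_eq_sum (x : Tab (Fin n) (Option (Fin n))) (j : Option (Fin n)) :
    colSum x j = ∑ a, if x a j = true then 1 else 0 := by
  unfold colSum
  rw [Finset.card_filter]

/-- (C2) the degree of `u` against the margins of the table -/
theorem deg_row (u v w : Fin n) (huv : u ≠ v) (huw : u ≠ w) (hvw : v ≠ w)
    (G : SimpleGraph (Fin n)) :
    G.degree u + colSum (tabOf u v w G) none = rowSum (tabOf u v w G) u + 2 := by
  rw [degree_eq_sum, colSum_eq_sum, rowSum_eq_sum]
  have h4 : ∀ b, (if G.Adj u b then 1 else 0)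
      = (if tabOf u v w G u (some b) = true then 1 else 0)
        + (if b = v then (if G.Adj u v then 1 else 0) else 0)
        + (if b = w then (if G.Adj u w then 1 else 0) else 0) := by
    intro b
    by_cases hbu : b = u
    · subst hbu
      have : ¬ (tabOf b v w G b (some b) = true) := by rw [tabOf_some]; tauto
      simp [this, huv, huw]
    by_cases hbv : b = v
    · subst hbv
      have : ¬ (tabOf u b w G u (some b) = true) := by rw [tabOf_some]; tauto
      simp [this, hvw]
    by_cases hbw : b = w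
    · subst hbw
      have : ¬ (tabOf u v b G u (some b) = true) := by rw [tabOf_some]; tauto
      simp [this, hbv]
    · have : (tabOf u v w G u (some b) = true) ↔ G.Adj u b := by rw [tabOf_some]; tauto
      simp [this, hbv, hbw]
  have h5 : ∀ a, (if tabOf u v w G a none = true then 1 else 0)
      = (if a = u then (if G.Adj v w then 0 else 1) else 0)
        + (if a = v then (if G.Adj u w then 0 else 1) else 0)
        + (if a = w then (if G.Adj u v then 0 else 1) else 0) := by
    intro a
    by_cases hau : a = u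
    · subst hau
      have : (tabOf a v w G a none = true) ↔ ¬ G.Adj v w := by rw [tabOf_none]; tauto
      simp [this, huv, huw]
    by_cases hav : a = v
    · subst hav
      have : (tabOf u a w G a none = true) ↔ ¬ G.Adj u w := by rw [tabOf_none]; tauto
      simp [this, hau, hvw]
    by_cases haw : a = w
    · subst haw
      have : (tabOf u v a G a none = true) ↔ ¬ G.Adj u v := by rw [tabOf_none]; tauto
      simp [this, hau, hav]
    · have : ¬ (tabOf u v w G a none = true) := by rw [tabOf_none]; tauto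
      simp [this, hau, hav, haw]
  have h6 : (if tabOf u v w G u none = true then 1 else 0) = (if G.Adj v w then 0 else 1) := by
    have : (tabOf u v w G u none = true) ↔ ¬ G.Adj v w := by rw [tabOf_none]; tauto
    simp [this]
  rw [Finset.sum_congr rfl (fun b _ => h4 b), Finset.sum_congr rfl (fun a _ => h5 a), h6]
  simp only [Finset.sum_add_distrib, Finset.sum_ite_eq', Finset.mem_univ, if_true]
  by_cases h1 : G.Adj u v <;> by_cases h2 : G.Adj u w <;> by_cases h3 : G.Adj v w <;>
    simp [h1, h2, h3] <;> omega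

theorem deg_rowT (u v w : Fin n) (huv : u ≠ v) (huw : u ≠ w) (hvw : v ≠ w)
    (G : SimpleGraph (Fin n)) (a : Fin n) (ha : a = u ∨ a = v ∨ a = w) :
    G.degree a + colSum (tabOf u v w G) none = rowSum (tabOf u v w G) a + 2 := by
  rcases ha with h | h | h
  · rw [h]; exact deg_row _ _ _ huv huw hvw G
  · rw [h]
    have := deg_row v u w huv.symm hvw huw G
    rwa [tabOf_swap12] at this
  · rw [h]
    have := deg_row w u v huw.symm hvw.symm huv G
    rwa [tabOf_swap12, tabOf_swap23] at this

theorem tabOf_off (u v w : Fin n) (G : SimpleGraph (Fin n)) (a : Fin n)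
    (ha : ¬ (a = u ∨ a = v ∨ a = w)) (j : Option (Fin n)) : tabOf u v w G a j = false := by
  rw [← Bool.not_eq_true]
  cases j with
  | none => rw [tabOf_none]; tauto
  | some c => rw [tabOf_some]; tauto

theorem tabOf_colT (u v w : Fin n) (G : SimpleGraph (Fin n)) (a c : Fin n)
    (hc : c = u ∨ c = v ∨ c = w) : tabOf u v w G a (some c) = false := by
  rw [← Bool.not_eq_true, tabOf_some]; tauto

theorem rowSum_tabOf_off (u v w : Fin n) (G : SimpleGraph (Fin n)) (a : Fin n)
    (ha : ¬ (a = u ∨ a = v ∨ a = w)) : rowSum (tabOf u v w G) a = 0 := by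
  unfold rowSum
  rw [Finset.card_eq_zero, Finset.filter_eq_empty_iff]
  intro j _
  rw [tabOf_off u v w G a ha j]; simp

theorem colSum_tabOf_T (u v w : Fin n) (G : SimpleGraph (Fin n)) (c : Fin n)
    (hc : c = u ∨ c = v ∨ c = w) : colSum (tabOf u v w G) (some c) = 0 := by
  unfold colSum
  rw [Finset.card_eq_zero, Finset.filter_eq_empty_iff]
  intro a _
  rw [tabOf_colT u v w G a c hc]; simp

/-- (C1) the degree of a vertex off the triple against the column sum of its column -/
theorem deg_col (u v w : Fin n) (G : SimpleGraph (Fin n)) (c : Fin n)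
    (hc : ¬ (c = u ∨ c = v ∨ c = w)) :
    G.degree c = (univ.filter fun b => ¬ (b = u ∨ b = v ∨ b = w) ∧ G.Adj c b).card
      + colSum (tabOf u v w G) (some c) := by
  rw [degree_eq_sum, colSum_eq_sum, Finset.card_filter, ← Finset.sum_add_distrib]
  apply Finset.sum_congr rfl
  intro b _
  have h1 : (tabOf u v w G b (some c) = true) ↔ ((b = u ∨ b = v ∨ b = w) ∧ G.Adj c b) := by
    rw [tabOf_some, G.adj_comm b c]; tauto
  by_cases hb : (b = u ∨ b = v ∨ b = w) <;> by_cases hA : G.Adj c b <;> simp [h1, hb, hA]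

theorem sum_rowSum (x : Tab (Fin n) (Option (Fin n))) :
    ∑ a, rowSum x a = ∑ j, colSum x j := by
  unfold rowSum colSum
  simp only [Finset.card_filter]
  exact Finset.sum_comm

/-- the column sum of the extra column is determined by the degrees at the triple and
the other column sums -/
theorem none_col_eq (u v w : Fin n) (huv : u ≠ v) (huw : u ≠ w) (hvw : v ≠ w)
    (G : SimpleGraph (Fin n)) :
    colSum (tabOf u v w G) none + (∑ c, colSum (tabOf u v w G) (some c)) + 6
      = G.degree u + G.degree v + G.degree w + 3 * colSum (tabOf u v w G) none := by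
  have hs := sum_rowSum (tabOf u v w G)
  rw [Fintype.sum_option] at hs
  have h3 : ∑ a, rowSum (tabOf u v w G) a
      = rowSum (tabOf u v w G) u + rowSum (tabOf u v w G) v + rowSum (tabOf u v w G) w := by
    have hsub : ∑ a ∈ ({u, v, w} : Finset (Fin n)), rowSum (tabOf u v w G) a
        = ∑ a, rowSum (tabOf u v w G) a := by
      apply Finset.sum_subset (Finset.subset_univ _)
      intro a _ ha
      apply rowSum_tabOf_off
      simpa using ha
    rw [← hsub, Finset.sum_insert (by simp [huv, huw]), Finset.sum_insert (by simp [hvw]),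
      Finset.sum_singleton]
    ring
  have h1 := deg_rowT u v w huv huw hvw G u (Or.inl rfl)
  have h2 := deg_rowT u v w huv huw hvw G v (Or.inr (Or.inl rfl))
  have h4 := deg_rowT u v w huv huw hvw G w (Or.inr (Or.inr rfl))
  omega

theorem mem_T (u v w a : Fin n) :
    a ∈ ({u, v, w} : Finset (Fin n)) ↔ a = u ∨ a = v ∨ a = w := by simp

theorem offLab_eq_iff (S : Finset (Fin n)) (G G' : SimpleGraph (Fin n)) :
    offLab S G = offLab S G' ↔ ∀ x y, x ∉ S → y ∉ S → (G.Adj x y ↔ G'.Adj x y) := by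
  constructor
  · intro h x y hx hy
    have := congrFun (congrFun h x) y
    simp only [offLab, eq_iff_iff] at this
    tauto
  · intro h
    funext x y
    simp only [offLab, eq_iff_iff]
    constructor
    · rintro ⟨hx, hy, h1⟩
      exact ⟨hx, hy, (h x y hx hy).1 h1⟩
    · rintro ⟨hx, hy, h1⟩
      exact ⟨hx, hy, (h x y hx hy).2 h1⟩

theorem offLab_mono {S S' : Finset (Fin n)} (hS : S ⊆ S') (G G' : SimpleGraph (Fin n))
    (h : offLab S G = offLab S G') : offLab S' G = offLab S' G' := by
  rw [offLab_eq_iff] at h ⊢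
  intro x y hx hy
  exact h x y (fun hh => hx (hS hh)) (fun hh => hy (hS hh))

theorem off_count (u v w : Fin n) (G G' : SimpleGraph (Fin n))
    (h : offLab {u, v, w} G = offLab {u, v, w} G') (c : Fin n)
    (hc : ¬ (c = u ∨ c = v ∨ c = w)) :
    (univ.filter fun b => ¬ (b = u ∨ b = v ∨ b = w) ∧ G.Adj c b)
      = (univ.filter fun b => ¬ (b = u ∨ b = v ∨ b = w) ∧ G'.Adj c b) := by
  rw [offLab_eq_iff] at h
  apply Finset.filter_congr
  intro b _
  constructor
  · rintro ⟨hb, hA⟩
    exact ⟨hb, (h c b (by rw [mem_T]; exact hc) (by rw [mem_T]; exact hb)).1 hA⟩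
  · rintro ⟨hb, hA⟩
    exact ⟨hb, (h c b (by rw [mem_T]; exact hc) (by rw [mem_T]; exact hb)).2 hA⟩

/-- graphs of the same fibre have tables with the same margins -/
theorem tabOf_margins (u v w : Fin n) (huv : u ≠ v) (huw : u ≠ w) (hvw : v ≠ w)
    (d : Fin n → ℕ) (G G0 : SimpleGraph (Fin n)) (hG : G ∈ gOmega n d)
    (hG0 : G0 ∈ gOmega n d) (h : offLab {u, v, w} G = offLab {u, v, w} G0) :
    (∀ a, rowSum (tabOf u v w G) a = rowSum (tabOf u v w G0) a)
      ∧ (∀ j, colSum (tabOf u v w G) j = colSum (tabOf u v w G0) j) := by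
  rw [mem_gOmega] at hG hG0
  have hsome : ∀ c, colSum (tabOf u v w G) (some c) = colSum (tabOf u v w G0) (some c) := by
    intro c
    by_cases hc : (c = u ∨ c = v ∨ c = w)
    · rw [colSum_tabOf_T u v w G c hc, colSum_tabOf_T u v w G0 c hc]
    · have h1 := deg_col u v w G c hc
      have h2 := deg_col u v w G0 c hc
      rw [off_count u v w G G0 h c hc, hG c] at h1
      rw [hG0 c] at h2
      omega
  have hnone : colSum (tabOf u v w G) none = colSum (tabOf u v w G0) none := by
    have h1 := none_col_eq u v w huv huw hvw G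
    have h2 := none_col_eq u v w huv huw hvw G0
    rw [Finset.sum_congr rfl (fun c _ => hsome c), hG u, hG v, hG w] at h1
    rw [hG0 u, hG0 v, hG0 w] at h2
    omega
  refine ⟨fun a => ?_, fun j => ?_⟩
  · by_cases ha : (a = u ∨ a = v ∨ a = w)
    · have h1 := deg_rowT u v w huv huw hvw G a ha
      have h2 := deg_rowT u v w huv huw hvw G0 a ha
      rw [hG a] at h1
      rw [hG0 a] at h2
      omega
    · rw [rowSum_tabOf_off u v w G a ha, rowSum_tabOf_off u v w G0 a ha]
  · cases j with
    | none => exact hnone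
    | some c => exact hsome c

/-- the graph with the edges of `G0` off `{u, v, w}` and the edges at `u, v, w` read from
the table `y` -/
def graphOf (u v w : Fin n) (G0 : SimpleGraph (Fin n)) (y : Tab (Fin n) (Option (Fin n))) :
    SimpleGraph (Fin n) where
  Adj a b := a ≠ b ∧
    ((¬ (a = u ∨ a = v ∨ a = w) ∧ ¬ (b = u ∨ b = v ∨ b = w) ∧ G0.Adj a b)
    ∨ ((a = u ∨ a = v ∨ a = w) ∧ ¬ (b = u ∨ b = v ∨ b = w) ∧ y a (some b) = true)
    ∨ ((b = u ∨ b = v ∨ b = w) ∧ ¬ (a = u ∨ a = v ∨ a = w) ∧ y b (some a) = true)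
    ∨ (((a = u ∧ b = v) ∨ (a = v ∧ b = u)) ∧ y w none = false)
    ∨ (((a = u ∧ b = w) ∨ (a = w ∧ b = u)) ∧ y v none = false)
    ∨ (((a = v ∧ b = w) ∨ (a = w ∧ b = v)) ∧ y u none = false))
  symm := ⟨by
    intro a b h
    obtain ⟨hab, h⟩ := h
    refine ⟨hab.symm, ?_⟩
    rcases h with h | h | h | h | h | h
    · exact Or.inl ⟨h.2.1, h.1, h.2.2.symm⟩
    · exact Or.inr (Or.inr (Or.inl h))
    · exact Or.inr (Or.inl h)
    · exact Or.inr (Or.inr (Or.inr (Or.inl
        ⟨h.1.elim (fun x => Or.inr ⟨x.2, x.1⟩) (fun x => Or.inl ⟨x.2, x.1⟩), h.2⟩)))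
    · exact Or.inr (Or.inr (Or.inr (Or.inr (Or.inl
        ⟨h.1.elim (fun x => Or.inr ⟨x.2, x.1⟩) (fun x => Or.inl ⟨x.2, x.1⟩), h.2⟩))))
    · exact Or.inr (Or.inr (Or.inr (Or.inr (Or.inr
        ⟨h.1.elim (fun x => Or.inr ⟨x.2, x.1⟩) (fun x => Or.inl ⟨x.2, x.1⟩), h.2⟩))))⟩
  loopless := ⟨fun a h => h.1 rfl⟩

theorem graphOf_adj (u v w : Fin n) (G0 : SimpleGraph (Fin n))
    (y : Tab (Fin n) (Option (Fin n))) (a b : Fin n) :
    (graphOf u v w G0 y).Adj a b ↔ a ≠ b ∧
    ((¬ (a = u ∨ a = v ∨ a = w) ∧ ¬ (b = u ∨ b = v ∨ b = w) ∧ G0.Adj a b)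
    ∨ ((a = u ∨ a = v ∨ a = w) ∧ ¬ (b = u ∨ b = v ∨ b = w) ∧ y a (some b) = true)
    ∨ ((b = u ∨ b = v ∨ b = w) ∧ ¬ (a = u ∨ a = v ∨ a = w) ∧ y b (some a) = true)
    ∨ (((a = u ∧ b = v) ∨ (a = v ∧ b = u)) ∧ y w none = false)
    ∨ (((a = u ∧ b = w) ∨ (a = w ∧ b = u)) ∧ y v none = false)
    ∨ (((a = v ∧ b = w) ∨ (a = w ∧ b = v)) ∧ y u none = false)) := Iff.rfl

theorem graphOf_adj_off (u v w : Fin n) (G0 : SimpleGraph (Fin n))
    (y : Tab (Fin n) (Option (Fin n))) (a b : Fin n) (ha : ¬ (a = u ∨ a = v ∨ a = w))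
    (hb : ¬ (b = u ∨ b = v ∨ b = w)) : (graphOf u v w G0 y).Adj a b ↔ G0.Adj a b := by
  rw [graphOf_adj]
  have hne := G0.ne_of_adj (a := a) (b := b)
  constructor
  · rintro ⟨_, h | h | h | h | h | h⟩ <;> tauto
  · intro h
    exact ⟨hne h, Or.inl ⟨ha, hb, h⟩⟩

theorem graphOf_adj_Tc (u v w : Fin n) (G0 : SimpleGraph (Fin n))
    (y : Tab (Fin n) (Option (Fin n))) (a b : Fin n) (ha : a = u ∨ a = v ∨ a = w)
    (hb : ¬ (b = u ∨ b = v ∨ b = w)) : (graphOf u v w G0 y).Adj a b ↔ y a (some b) = true := by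
  rw [graphOf_adj]
  have hne : a ≠ b := by
    intro h; rw [h] at ha; exact hb ha
  constructor
  · rintro ⟨_, h | h | h | h | h | h⟩ <;> tauto
  · intro h
    exact ⟨hne, Or.inr (Or.inl ⟨ha, hb, h⟩)⟩

theorem graphOf_adj_uv (u v w : Fin n) (huv : u ≠ v) (huw : u ≠ w) (hvw : v ≠ w)
    (G0 : SimpleGraph (Fin n)) (y : Tab (Fin n) (Option (Fin n))) :
    (graphOf u v w G0 y).Adj u v ↔ y w none = false := by
  rw [graphOf_adj]
  have h1 := huv.symm
  have h2 := huw.symm
  have h3 := hvw.symm
  constructor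
  · rintro ⟨_, h | h | h | h | h | h⟩ <;> tauto
  · intro h
    exact ⟨huv, Or.inr (Or.inr (Or.inr (Or.inl ⟨Or.inl ⟨rfl, rfl⟩, h⟩)))⟩

theorem graphOf_adj_uw (u v w : Fin n) (huv : u ≠ v) (huw : u ≠ w) (hvw : v ≠ w)
    (G0 : SimpleGraph (Fin n)) (y : Tab (Fin n) (Option (Fin n))) :
    (graphOf u v w G0 y).Adj u w ↔ y v none = false := by
  rw [graphOf_adj]
  have h1 := huv.symm
  have h2 := huw.symm
  have h3 := hvw.symm
  constructor
  · rintro ⟨_, h | h | h | h | h | h⟩ <;> tauto
  · intro h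
    exact ⟨huw, Or.inr (Or.inr (Or.inr (Or.inr (Or.inl ⟨Or.inl ⟨rfl, rfl⟩, h⟩))))⟩

theorem graphOf_adj_vw (u v w : Fin n) (huv : u ≠ v) (huw : u ≠ w) (hvw : v ≠ w)
    (G0 : SimpleGraph (Fin n)) (y : Tab (Fin n) (Option (Fin n))) :
    (graphOf u v w G0 y).Adj v w ↔ y u none = false := by
  rw [graphOf_adj]
  have h1 := huv.symm
  have h2 := huw.symm
  have h3 := hvw.symm
  constructor
  · rintro ⟨_, h | h | h | h | h | h⟩ <;> tauto
  · intro h
    exact ⟨hvw, Or.inr (Or.inr (Or.inr (Or.inr (Or.inr ⟨Or.inl ⟨rfl, rfl⟩, h⟩))))⟩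

/-- (L2) the decoded graph agrees with `G0` off the triple -/
theorem offLab_graphOf (u v w : Fin n) (G0 : SimpleGraph (Fin n))
    (y : Tab (Fin n) (Option (Fin n))) :
    offLab {u, v, w} (graphOf u v w G0 y) = offLab {u, v, w} G0 := by
  rw [offLab_eq_iff]
  intro a b ha hb
  rw [mem_T] at ha hb
  exact graphOf_adj_off u v w G0 y a b ha hb

/-- (L1) decoding then encoding gives back the table -/
theorem tabOf_graphOf (u v w : Fin n) (huv : u ≠ v) (huw : u ≠ w) (hvw : v ≠ w)
    (G0 : SimpleGraph (Fin n)) (y : Tab (Fin n) (Option (Fin n)))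
    (hoff : ∀ a, ¬ (a = u ∨ a = v ∨ a = w) → ∀ j, y a j = false)
    (hcol : ∀ a c, (c = u ∨ c = v ∨ c = w) → y a (some c) = false) :
    tabOf u v w (graphOf u v w G0 y) = y := by
  funext a j
  rw [Bool.eq_iff_iff]
  cases j with
  | none =>
    rw [tabOf_none, graphOf_adj_vw u v w huv huw hvw, graphOf_adj_uw u v w huv huw hvw,
      graphOf_adj_uv u v w huv huw hvw]
    simp only [Bool.not_eq_false]
    by_cases ha : (a = u ∨ a = v ∨ a = w)
    · rcases ha with h | h | h
      · subst h
        constructor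
        · rintro (h | h | h)
          · exact h.2
          · exact absurd h.1 huv
          · exact absurd h.1 huw
        · intro h; exact Or.inl ⟨rfl, h⟩
      · subst h
        constructor
        · rintro (h | h | h)
          · exact absurd h.1 huv.symm
          · exact h.2
          · exact absurd h.1 hvw
        · intro h; exact Or.inr (Or.inl ⟨rfl, h⟩)
      · subst h
        constructor
        · rintro (h | h | h)
          · exact absurd h.1 huw.symm
          · exact absurd h.1 hvw.symm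
          · exact h.2
        · intro h; exact Or.inr (Or.inr ⟨rfl, h⟩)
    · have := hoff a ha none
      constructor
      · intro h; exfalso; tauto
      · intro h; rw [this] at h; exact absurd h (by simp)
  | some c =>
    rw [tabOf_some]
    by_cases ha : (a = u ∨ a = v ∨ a = w)
    · by_cases hc : (c = u ∨ c = v ∨ c = w)
      · have := hcol a c hc
        constructor
        · intro h; exfalso; tauto
        · intro h; rw [this] at h; exact absurd h (by simp)
      · rw [graphOf_adj_Tc u v w G0 y a c ha hc]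
        have hc' : c ≠ u ∧ c ≠ v ∧ c ≠ w := by tauto
        tauto
    · have := hoff a ha (some c)
      constructor
      · intro h; exfalso; tauto
      · intro h; rw [this] at h; exact absurd h (by simp)

/-- (L3) encoding then decoding gives back the graph -/
theorem graphOf_tabOf (u v w : Fin n) (huv : u ≠ v) (huw : u ≠ w) (hvw : v ≠ w)
    (G G0 : SimpleGraph (Fin n)) (h : offLab {u, v, w} G = offLab {u, v, w} G0) :
    graphOf u v w G0 (tabOf u v w G) = G := by
  rw [offLab_eq_iff] at h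
  have hTT : ∀ a b, (a = u ∨ a = v ∨ a = w) → (b = u ∨ b = v ∨ b = w) →
      ((graphOf u v w G0 (tabOf u v w G)).Adj a b ↔ G.Adj a b) := by
    have e1 : (graphOf u v w G0 (tabOf u v w G)).Adj u v ↔ G.Adj u v := by
      rw [graphOf_adj_uv u v w huv huw hvw, ← Bool.not_eq_true, tabOf_none]
      constructor
      · intro h; by_contra hc; exact h (Or.inr (Or.inr ⟨rfl, hc⟩))
      · intro h hc
        rcases hc with hc | hc | hc
        · exact huw hc.1.symm
        · exact hvw hc.1.symm
        · exact hc.2 h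
    have e2 : (graphOf u v w G0 (tabOf u v w G)).Adj u w ↔ G.Adj u w := by
      rw [graphOf_adj_uw u v w huv huw hvw, ← Bool.not_eq_true, tabOf_none]
      constructor
      · intro h; by_contra hc; exact h (Or.inr (Or.inl ⟨rfl, hc⟩))
      · intro h hc
        rcases hc with hc | hc | hc
        · exact huv hc.1.symm
        · exact hc.2 h
        · exact hvw hc.1
    have e3 : (graphOf u v w G0 (tabOf u v w G)).Adj v w ↔ G.Adj v w := by
      rw [graphOf_adj_vw u v w huv huw hvw, ← Bool.not_eq_true, tabOf_none]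
      constructor
      · intro h; by_contra hc; exact h (Or.inl ⟨rfl, hc⟩)
      · intro h hc
        rcases hc with hc | hc | hc
        · exact hc.2 h
        · exact huv hc.1
        · exact huw hc.1
    intro a b ha hb
    rcases ha with ha | ha | ha <;> rcases hb with hb | hb | hb <;> subst ha <;> subst hb
    · constructor <;> intro h <;> exact absurd rfl (SimpleGraph.ne_of_adj _ h)
    · exact e1
    · exact e2
    · rw [SimpleGraph.adj_comm, e1, SimpleGraph.adj_comm]
    · constructor <;> intro h <;> exact absurd rfl (SimpleGraph.ne_of_adj _ h)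
    · exact e3
    · rw [SimpleGraph.adj_comm, e2, SimpleGraph.adj_comm]
    · rw [SimpleGraph.adj_comm, e3, SimpleGraph.adj_comm]
    · constructor <;> intro h <;> exact absurd rfl (SimpleGraph.ne_of_adj _ h)
  have hTc : ∀ a b, (a = u ∨ a = v ∨ a = w) → ¬ (b = u ∨ b = v ∨ b = w) →
      ((graphOf u v w G0 (tabOf u v w G)).Adj a b ↔ G.Adj a b) := by
    intro a b ha hb
    rw [graphOf_adj_Tc u v w G0 _ a b ha hb, tabOf_some]
    have hb' : b ≠ u ∧ b ≠ v ∧ b ≠ w := by tauto
    tauto
  ext a b
  by_cases ha : (a = u ∨ a = v ∨ a = w)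
  · by_cases hb : (b = u ∨ b = v ∨ b = w)
    · exact hTT a b ha hb
    · exact hTc a b ha hb
  · by_cases hb : (b = u ∨ b = v ∨ b = w)
    · rw [SimpleGraph.adj_comm, hTc b a hb ha, SimpleGraph.adj_comm]
    · rw [graphOf_adj_off u v w G0 _ a b ha hb]
      exact (h a b (by rw [mem_T]; exact ha) (by rw [mem_T]; exact hb)).symm

theorem entry_false_of_colSum_zero (y : Tab (Fin n) (Option (Fin n))) (j : Option (Fin n))
    (h : colSum y j = 0) (a : Fin n) : y a j = false := by
  unfold colSum at h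
  rw [Finset.card_eq_zero, Finset.filter_eq_empty_iff] at h
  have := h (Finset.mem_univ a)
  simpa using this

/-- (L5) the decoded graph has the prescribed degrees -/
theorem graphOf_mem (u v w : Fin n) (huv : u ≠ v) (huw : u ≠ w) (hvw : v ≠ w)
    (d : Fin n → ℕ) (G0 : SimpleGraph (Fin n)) (hG0 : G0 ∈ gOmega n d)
    (y : Tab (Fin n) (Option (Fin n)))
    (hrow : ∀ a, rowSum y a = rowSum (tabOf u v w G0) a)
    (hcol : ∀ j, colSum y j = colSum (tabOf u v w G0) j)
    (hoff : ∀ a, ¬ (a = u ∨ a = v ∨ a = w) → ∀ j, y a j = false) :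
    graphOf u v w G0 y ∈ gOmega n d ∧ tabOf u v w (graphOf u v w G0 y) = y := by
  have hcolT : ∀ a c, (c = u ∨ c = v ∨ c = w) → y a (some c) = false := by
    intro a c hc
    apply entry_false_of_colSum_zero
    rw [hcol, colSum_tabOf_T u v w G0 c hc]
  have he := tabOf_graphOf u v w huv huw hvw G0 y hoff hcolT
  refine ⟨?_, he⟩
  rw [mem_gOmega] at hG0 ⊢
  intro c
  by_cases hc : (c = u ∨ c = v ∨ c = w)
  · have h1 := deg_rowT u v w huv huw hvw (graphOf u v w G0 y) c hc
    have h2 := deg_rowT u v w huv huw hvw G0 c hc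
    rw [he, hrow c, hcol none] at h1
    rw [hG0 c] at h2
    omega
  · have h1 := deg_col u v w (graphOf u v w G0 y) c hc
    have h2 := deg_col u v w G0 c hc
    rw [he, off_count u v w _ G0 (offLab_graphOf u v w G0 y) c hc, hcol (some c)] at h1
    rw [hG0 c] at h2
    omega

/-- the fibre of `G0` over its restriction off the triple -/
noncomputable def gFibre (d : Fin n → ℕ) (u v w : Fin n) (G0 : SimpleGraph (Fin n)) :
    Finset (SimpleGraph (Fin n)) :=
  (gOmega n d).filter fun G => offLab {u, v, w} G = offLab {u, v, w} G0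

theorem mem_gFibre (d : Fin n → ℕ) (u v w : Fin n) (G0 G : SimpleGraph (Fin n)) :
    G ∈ gFibre d u v w G0 ↔ G ∈ gOmega n d ∧ offLab {u, v, w} G = offLab {u, v, w} G0 := by
  simp [gFibre]

theorem tabOf_injOn (d : Fin n → ℕ) (u v w : Fin n) (huv : u ≠ v) (huw : u ≠ w)
    (hvw : v ≠ w) (G0 : SimpleGraph (Fin n)) :
    Set.InjOn (tabOf u v w) (gFibre d u v w G0) := by
  intro G hG G' hG' h
  have h1 := ((mem_gFibre d u v w G0 G).1 (Finset.mem_coe.1 hG)).2
  have h2 := ((mem_gFibre d u v w G0 G').1 (Finset.mem_coe.1 hG')).2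
  rw [← graphOf_tabOf u v w huv huw hvw G G0 h1, ← graphOf_tabOf u v w huv huw hvw G' G0 h2, h]

theorem rowSet_triple (u v w : Fin n) : rowSet (![u, v, w] : Fin 3 → Fin n) = {u, v, w} := by
  simp [rowSet]

/-- the tables of a fibre are exactly a three-row fibre of a class of tables -/
theorem image_tabOf (d : Fin n → ℕ) (u v w : Fin n) (huv : u ≠ v) (huw : u ≠ w)
    (hvw : v ≠ w) (G0 : SimpleGraph (Fin n)) (hG0 : G0 ∈ gOmega n d) :
    (gFibre d u v w G0).image (tabOf u v w)
      = fibre (Omega (rowSum (tabOf u v w G0)) (colSum (tabOf u v w G0)))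
          (rowSet (![u, v, w] : Fin 3 → Fin n)) (tabOf u v w G0) := by
  ext y
  rw [Finset.mem_image, mem_fibre_iff, mem_Omega_iff, rowSet_triple]
  constructor
  · rintro ⟨G, hG, rfl⟩
    obtain ⟨hGΩ, hlab⟩ := (mem_gFibre d u v w G0 G).1 hG
    refine ⟨tabOf_margins u v w huv huw hvw d G G0 hGΩ hG0 hlab, ?_⟩
    intro a ha
    rw [mem_T] at ha
    funext j
    rw [tabOf_off u v w G0 a ha j, tabOf_off u v w G a ha j]
  · rintro ⟨⟨hrow, hcol⟩, hag⟩
    have hoff : ∀ a, ¬ (a = u ∨ a = v ∨ a = w) → ∀ j, y a j = false := by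
      intro a ha j
      have := hag a (by rw [mem_T]; exact ha)
      rw [← this, tabOf_off u v w G0 a ha j]
    obtain ⟨h1, h2⟩ := graphOf_mem u v w huv huw hvw d G0 hG0 y hrow hcol hoff
    exact ⟨graphOf u v w G0 y, (mem_gFibre d u v w G0 _).2 ⟨h1, offLab_graphOf u v w G0 y⟩, h2⟩

/-- the row label of a vertex of the triple: its neighbours off the triple -/
noncomputable def rowLab (u v w : Fin n) (a : Fin n) (G : SimpleGraph (Fin n)) : Fin n → Bool :=
  fun b => tabOf u v w G a (some b)

/-- a fibre over the restriction off a triple has property `TV2` for the three row labels -/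
theorem tv2_gFibre (d : Fin n → ℕ) (u v w : Fin n) (huv : u ≠ v) (huw : u ≠ w)
    (hvw : v ≠ w) (G0 : SimpleGraph (Fin n)) (hG0 : G0 ∈ gOmega n d) :
    TV2 (gFibre d u v w G0)
      (fun (r : Fin 3) (G : SimpleGraph (Fin n)) => rowLab u v w ((![u, v, w] : Fin 3 → Fin n) r) G) := by
  have hinj : Function.Injective (![u, v, w] : Fin 3 → Fin n) := by
    intro i j h
    rcases fin3_cases i with rfl | rfl | rfl <;> rcases fin3_cases j with rfl | rfl | rfl <;>
      simp_all
  have hx0 : tabOf u v w G0 ∈ Omega (rowSum (tabOf u v w G0)) (colSum (tabOf u v w G0)) := by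
    rw [mem_Omega_iff]
    exact ⟨fun _ => rfl, fun _ => rfl⟩
  have hT := tv2_fibre (fun _ _ _ t δ => tv2_col t δ) (rowSum (tabOf u v w G0))
    (colSum (tabOf u v w G0)) (![u, v, w] : Fin 3 → Fin n) hinj (tabOf u v w G0) hx0
  rw [← image_tabOf d u v w huv huw hvw G0 hG0] at hT
  exact TV2.transport (gFibre d u v w G0) _ _ (tabOf u v w)
    (tabOf_injOn d u v w huv huw hvw G0) (fun _ row => fun b => row (some b))
    (fun _ _ _ => rfl) hT

/-- conditional expectations depend only on the partition induced by the label -/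
theorem cexpL_kernel {X Λ Λ' : Type*} (Ω : Finset X) (l : X → Λ) (l' : X → Λ')
    (h : ∀ x ∈ Ω, ∀ y ∈ Ω, l x = l y ↔ l' x = l' y) (f : X → ℝ) {x : X} (hx : x ∈ Ω) :
    cexpL Ω l f x = cexpL Ω l' f x := by
  rw [cexpL_eq, cexpL_eq]
  have : Ω.filter (fun y => l y = l x) = Ω.filter (fun y => l' y = l' x) :=
    Finset.filter_congr fun y hy => h y hy x hx
  rw [this]

/-- resampling the two vertices of the triple other than `a`, inside a fibre, is the
conditional expectation given the row label of `a` -/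
theorem cexpL_pair (d : Fin n → ℕ) (u v w : Fin n) (G0 G : SimpleGraph (Fin n))
    (hG : G ∈ gFibre d u v w G0) (a : Fin n) (ha : a = u ∨ a = v ∨ a = w)
    (f : SimpleGraph (Fin n) → ℝ) :
    cexpL (gOmega n d) (offLab (({u, v, w} : Finset (Fin n)).erase a)) f G
      = cexpL (gFibre d u v w G0) (rowLab u v w a) f G := by
  obtain ⟨hGΩ, hGl⟩ := (mem_gFibre d u v w G0 G).1 hG
  have hset : (gOmega n d).filter (fun G' => offLab (({u, v, w} : Finset (Fin n)).erase a) G'
        = offLab (({u, v, w} : Finset (Fin n)).erase a) G)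
      = (gFibre d u v w G0).filter (fun G' => rowLab u v w a G' = rowLab u v w a G) := by
    ext G'
    rw [Finset.mem_filter, Finset.mem_filter, mem_gFibre]
    constructor
    · rintro ⟨hG', hl⟩
      refine ⟨⟨hG', ?_⟩, ?_⟩
      · rw [← hGl]
        exact offLab_mono (Finset.erase_subset _ _) G' G hl
      · rw [offLab_eq_iff] at hl
        funext b
        unfold rowLab
        rw [Bool.eq_iff_iff, tabOf_some, tabOf_some]
        have hiff : (b ≠ u ∧ b ≠ v ∧ b ≠ w) → (G'.Adj a b ↔ G.Adj a b) := by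
          intro hb
          apply hl a b
          · simp
          · rw [Finset.mem_erase, mem_T]
            rintro ⟨_, h | h | h⟩
            exacts [hb.1 h, hb.2.1 h, hb.2.2 h]
        constructor
        · rintro ⟨h1, h2, h3⟩; exact ⟨h1, h2, (hiff h2).1 h3⟩
        · rintro ⟨h1, h2, h3⟩; exact ⟨h1, h2, (hiff h2).2 h3⟩
    · rintro ⟨⟨hG', hl'⟩, hrow⟩
      refine ⟨hG', ?_⟩
      rw [← hGl, offLab_eq_iff] at hl'
      rw [offLab_eq_iff]
      have hrow' : ∀ b, ¬ (b = u ∨ b = v ∨ b = w) → (G'.Adj a b ↔ G.Adj a b) := by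
        intro b hb
        have := congrFun hrow b
        unfold rowLab at this
        rw [Bool.eq_iff_iff, tabOf_some, tabOf_some] at this
        have hb' : b ≠ u ∧ b ≠ v ∧ b ≠ w :=
          ⟨fun h => hb (Or.inl h), fun h => hb (Or.inr (Or.inl h)),
            fun h => hb (Or.inr (Or.inr h))⟩
        constructor
        · intro h; exact (this.1 ⟨ha, hb', h⟩).2.2
        · intro h; exact (this.2 ⟨ha, hb', h⟩).2.2
      intro x y hx hy
      rw [Finset.mem_erase, mem_T] at hx hy
      by_cases hxa : x = a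
      · by_cases hya : y = a
        · rw [hxa, hya]
          constructor <;> intro h <;> exact absurd rfl (SimpleGraph.ne_of_adj _ h)
        · rw [hxa]
          exact hrow' y (fun h => hy ⟨hya, h⟩)
      · by_cases hya : y = a
        · rw [hya, SimpleGraph.adj_comm, hrow' x (fun h => hx ⟨hxa, h⟩), SimpleGraph.adj_comm]
        · exact hl' x y (by rw [mem_T]; exact fun h => hx ⟨hxa, h⟩)
            (by rw [mem_T]; exact fun h => hy ⟨hya, h⟩)
  rw [cexpL_eq, cexpL_eq, hset]

/-- resampling the whole triple is the average over the fibre -/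
theorem cexpL_all (d : Fin n → ℕ) (u v w : Fin n) (G0 G : SimpleGraph (Fin n))
    (hG : G ∈ gFibre d u v w G0) (f : SimpleGraph (Fin n) → ℝ) :
    cexpL (gOmega n d) (offLab {u, v, w}) f G
      = (∑ G' ∈ gFibre d u v w G0, f G') / ((gFibre d u v w G0).card : ℝ) := by
  obtain ⟨hGΩ, hGl⟩ := (mem_gFibre d u v w G0 G).1 hG
  rw [cexpL_eq, hGl]
  rfl

theorem erase_u (u v w : Fin n) (huv : u ≠ v) (huw : u ≠ w) :
    ({u, v, w} : Finset (Fin n)).erase u = {v, w} := by
  ext a
  simp only [Finset.mem_erase, Finset.mem_insert, Finset.mem_singleton]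
  constructor
  · rintro ⟨h1, h2 | h2 | h2⟩
    · exact absurd h2 h1
    · exact Or.inl h2
    · exact Or.inr h2
  · rintro (h | h)
    · exact ⟨by rw [h]; exact huv.symm, Or.inr (Or.inl h)⟩
    · exact ⟨by rw [h]; exact huw.symm, Or.inr (Or.inr h)⟩

theorem erase_v (u v w : Fin n) (huv : u ≠ v) (hvw : v ≠ w) :
    ({u, v, w} : Finset (Fin n)).erase v = {u, w} := by
  ext a
  simp only [Finset.mem_erase, Finset.mem_insert, Finset.mem_singleton]
  constructor
  · rintro ⟨h1, h2 | h2 | h2⟩
    · exact Or.inl h2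
    · exact absurd h2 h1
    · exact Or.inr h2
  · rintro (h | h)
    · exact ⟨by rw [h]; exact huv, Or.inl h⟩
    · exact ⟨by rw [h]; exact hvw.symm, Or.inr (Or.inr h)⟩

theorem erase_w (u v w : Fin n) (huw : u ≠ w) (hvw : v ≠ w) :
    ({u, v, w} : Finset (Fin n)).erase w = {u, v} := by
  ext a
  simp only [Finset.mem_erase, Finset.mem_insert, Finset.mem_singleton]
  constructor
  · rintro ⟨h1, h2 | h2 | h2⟩
    · exact Or.inl h2
    · exact Or.inr h2
    · exact absurd h2 h1
  · rintro (h | h)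
    · exact ⟨by rw [h]; exact huw, Or.inl h⟩
    · exact ⟨by rw [h]; exact hvw, Or.inr (Or.inl h)⟩

/-- the three-row inequality on one fibre over the restriction off the triple -/
theorem graph_three_row_fibre (d : Fin n → ℕ) (u v w : Fin n) (huv : u ≠ v) (huw : u ≠ w)
    (hvw : v ≠ w) (G0 : SimpleGraph (Fin n)) (hG0 : G0 ∈ gOmega n d)
    (f : SimpleGraph (Fin n) → ℝ) :
    ∑ G ∈ gFibre d u v w G0,
        ((cexpL (gOmega n d) (offLab {u, v}) f G) ^ 2
          + (cexpL (gOmega n d) (offLab {u, w}) f G) ^ 2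
          + (cexpL (gOmega n d) (offLab {v, w}) f G) ^ 2)
      ≤ 2 * ∑ G ∈ gFibre d u v w G0, (f G) ^ 2
        + ∑ G ∈ gFibre d u v w G0, (cexpL (gOmega n d) (offLab {u, v, w}) f G) ^ 2 := by
  have hT := tv2_gFibre d u v w huv huw hvw G0 hG0
  have hop := TV2.opform _ _ hT f
  set Φ := gFibre d u v w G0 with hΦ
  have hG0Φ : G0 ∈ Φ := (mem_gFibre d u v w G0 G0).2 ⟨hG0, rfl⟩
  have hN : (0 : ℝ) < (Φ.card : ℝ) := by
    exact_mod_cast Finset.card_pos.2 ⟨G0, hG0Φ⟩
  have h1 : ∑ G ∈ Φ, ((cexpL (gOmega n d) (offLab {u, v}) f G) ^ 2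
          + (cexpL (gOmega n d) (offLab {u, w}) f G) ^ 2
          + (cexpL (gOmega n d) (offLab {v, w}) f G) ^ 2)
      = ∑ r : Fin 3, ∑ G ∈ Φ,
          (cexpL Φ (rowLab u v w ((![u, v, w] : Fin 3 → Fin n) r)) f G) ^ 2 := by
    rw [Fin.sum_univ_three, ← Finset.sum_add_distrib, ← Finset.sum_add_distrib]
    apply Finset.sum_congr rfl
    intro G hG
    have e0 := cexpL_pair d u v w G0 G hG u (Or.inl rfl) f
    have e1 := cexpL_pair d u v w G0 G hG v (Or.inr (Or.inl rfl)) f
    have e2 := cexpL_pair d u v w G0 G hG w (Or.inr (Or.inr rfl)) f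
    rw [erase_u u v w huv huw] at e0
    rw [erase_v u v w huv hvw] at e1
    rw [erase_w u v w huw hvw] at e2
    rw [e0, e1, e2]
    show _ = cexpL Φ (rowLab u v w u) f G ^ 2 + cexpL Φ (rowLab u v w v) f G ^ 2
      + cexpL Φ (rowLab u v w w) f G ^ 2
    ring
  have h2 : ∑ G ∈ Φ, (cexpL (gOmega n d) (offLab {u, v, w}) f G) ^ 2
      = (∑ G ∈ Φ, f G) ^ 2 / (Φ.card : ℝ) := by
    have : ∀ G ∈ Φ, (cexpL (gOmega n d) (offLab {u, v, w}) f G) ^ 2
        = ((∑ G' ∈ Φ, f G') / (Φ.card : ℝ)) ^ 2 := by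
      intro G hG
      rw [cexpL_all d u v w G0 G hG]
    rw [Finset.sum_congr rfl this, Finset.sum_const, nsmul_eq_mul]
    field_simp
  rw [h1, h2]
  have h3 : ((Fintype.card (Fin 3) : ℝ) - 2) * (∑ G ∈ Φ, f G) ^ 2 / (Φ.card : ℝ)
      = (∑ G ∈ Φ, f G) ^ 2 / (Φ.card : ℝ) := by
    rw [Fintype.card_fin]
    norm_num
  rw [h3] at hop
  exact hop

/-- **The three-row inequality for graphs with a prescribed degree vector.**  For three
distinct vertices `u, v, w` the conditional expectations given the restrictions of the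
graph off `{u,v}`, `{u,w}`, `{v,w}` and `{u,v,w}` (uniform measure on the graphs with
degree vector `d`) satisfy `|E_uv f|² + |E_uw f|² + |E_vw f|² ≤ 2 |f|² + |E_uvw f|²`. -/
theorem graph_three_row (d : Fin n → ℕ) {u v w : Fin n} (huv : u ≠ v) (huw : u ≠ w)
    (hvw : v ≠ w) (f : SimpleGraph (Fin n) → ℝ) :
    ∑ G ∈ gOmega n d,
        ((cexpL (gOmega n d) (offLab {u, v}) f G) ^ 2
          + (cexpL (gOmega n d) (offLab {u, w}) f G) ^ 2
          + (cexpL (gOmega n d) (offLab {v, w}) f G) ^ 2)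
      ≤ 2 * ∑ G ∈ gOmega n d, (f G) ^ 2
        + ∑ G ∈ gOmega n d, (cexpL (gOmega n d) (offLab {u, v, w}) f G) ^ 2 := by
  rw [← sum_fibres (gOmega n d) (offLab ({u, v, w} : Finset (Fin n)))
      (fun G => (cexpL (gOmega n d) (offLab {u, v}) f G) ^ 2
        + (cexpL (gOmega n d) (offLab {u, w}) f G) ^ 2
        + (cexpL (gOmega n d) (offLab {v, w}) f G) ^ 2),
    ← sum_fibres (gOmega n d) (offLab ({u, v, w} : Finset (Fin n))) (fun G => f G ^ 2),
    ← sum_fibres (gOmega n d) (offLab ({u, v, w} : Finset (Fin n)))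
      (fun G => (cexpL (gOmega n d) (offLab {u, v, w}) f G) ^ 2),
    Finset.mul_sum, ← Finset.sum_add_distrib]
  apply Finset.sum_le_sum
  intro z0 hz0
  obtain ⟨G0, hG0, rfl⟩ := Finset.mem_image.1 hz0
  exact graph_three_row_fibre d u v w huv huw hvw G0 hG0 f

/-- **The triangle lemma for graphs with a prescribed degree vector**, function form:
with `A = 3 - E_uv - E_uw - E_vw` one has `⟨f, A f⟩ ≤ |A f|²`. -/
theorem graph_tri (d : Fin n → ℕ) {u v w : Fin n} (huv : u ≠ v) (huw : u ≠ w)
    (hvw : v ≠ w) (f : SimpleGraph (Fin n) → ℝ) :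
    ∑ G ∈ gOmega n d, f G * (3 * f G - cexpL (gOmega n d) (offLab {u, v}) f G
        - cexpL (gOmega n d) (offLab {u, w}) f G - cexpL (gOmega n d) (offLab {v, w}) f G)
      ≤ ∑ G ∈ gOmega n d, (3 * f G - cexpL (gOmega n d) (offLab {u, v}) f G
        - cexpL (gOmega n d) (offLab {u, w}) f G - cexpL (gOmega n d) (offLab {v, w}) f G) ^ 2 := by
  have hsub1 : ({u, v} : Finset (Fin n)) ⊆ {u, v, w} := by
    intro a; simp only [Finset.mem_insert, Finset.mem_singleton]; tauto
  have hsub2 : ({u, w} : Finset (Fin n)) ⊆ {u, v, w} := by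
    intro a; simp only [Finset.mem_insert, Finset.mem_singleton]; tauto
  have hsub3 : ({v, w} : Finset (Fin n)) ⊆ {u, v, w} := by
    intro a; simp only [Finset.mem_insert, Finset.mem_singleton]; tauto
  exact tri_abstract (gOmega n d) (offLab {u, v}) (offLab {u, w}) (offLab {v, w})
    (offLab {u, v, w}) (fun x _ y _ h => offLab_mono hsub1 x y h)
    (fun x _ y _ h => offLab_mono hsub2 x y h) (fun x _ y _ h => offLab_mono hsub3 x y h)
    (fun g => graph_three_row d huv huw hvw g) f

end KTV.H8G
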